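import Vale.Agent.P198.I.Prop

/-! # P198 I/Coc: cocompactness

* `H3_compact`: `Topology.IsClosedEmbedding`/`Subtype.isCompact_iff`: the image is
  `{x | mink x x = 1 ∧ 1 ≤ x 0 ∧ x 0 ≤ R}` (on `H3`, `x0^2 = 1 + ...` gives `1 ≤ x0`), closed and
  contained in `closedBall 0 |R|` (all `|x i| ≤ x 0`): `Metric.isCompact_of_isClosed_isBounded`.
* `ActI.cocompact`: `c` from `GP.triples`, `m` from `NMI.lower c`, `R = 2 / m`. Take `a b c` from
  `mink_frame`, `a = a0 • n ξ0` etc. (`onto` for `(a 0)⁻¹ • a`); the three points are distinct since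
  `mink a b, mink a c, mink b c ≠ 0`. With `g` from `triples` (for `![ξ0, ξ1, ξ2]`):
  `L g a = μ0 • n (g•ξ0)` etc., `μi > 0`, `μ0 μ1 M01 = 2`, `μ0 μ2 M02 = 1`, `μ1 μ2 M12 = 1` with
  `m ≤ Mij ≤ 2` (`mink_null_le`). So `μ0 μ1 ≤ 2/m`, `μ0 μ2 ≤ 1/m`, `μ1 μ2 ≥ 1/2`, hence
  `μ0^2 ≤ 4/m^2`; likewise `μ1`; `L g x 0 = (μ0 + μ1) / 2 ≤ 2/m`. -/

namespace Vale.Agent.P198
open Set Metric Filter Topology MeasureTheory
variable {G Z : Type} [Group G] [MetricSpace Z] [CompactSpace Z] [MulAction G Z]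
  [ContinuousConstSMul G Z]

theorem H3_compact (R : ℝ) : IsCompact {x : H3 | x.1 0 ≤ R} := by
  rw [Subtype.isCompact_iff]
  have e : Subtype.val '' {x : H3 | x.1 0 ≤ R} =
      {x : Fin 4 → ℝ | mink x x = 1} ∩ ({x | 1 ≤ x 0} ∩ {x | x 0 ≤ R}) := by
    ext x
    constructor
    · rintro ⟨⟨y, h1, h2⟩, h3, rfl⟩
      refine ⟨h1, ?_, h3⟩
      change 1 ≤ y 0
      simp only [mink] at h1
      nlinarith [mul_self_nonneg (y 1), mul_self_nonneg (y 2), mul_self_nonneg (y 3)]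
    · rintro ⟨h1, h2, h3⟩
      exact ⟨⟨x, h1, one_pos.trans_le h2⟩, h3, rfl⟩
  rw [e]
  refine Metric.isCompact_of_isClosed_isBounded ?_ ((isBounded_closedBall (x := 0) (r := R)).subset ?_)
  · refine (isClosed_eq ?_ continuous_const).inter ((isClosed_le continuous_const
      (continuous_apply 0)).inter (isClosed_le (continuous_apply 0) continuous_const))
    unfold mink
    fun_prop
  · rintro x ⟨h1, h2, h3⟩
    have h2' : 1 ≤ x 0 := h2
    have h3' : x 0 ≤ R := h3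
    have h1' : x 0 * x 0 - x 1 * x 1 - x 2 * x 2 - x 3 * x 3 = 1 := h1
    rw [mem_closedBall_zero_iff, pi_norm_le_iff_of_nonneg (by linarith)]
    have key : ∀ i, x i * x i ≤ x 0 * x 0 := fun i => by
      fin_cases i <;> simp <;>
        nlinarith [mul_self_nonneg (x 1), mul_self_nonneg (x 2), mul_self_nonneg (x 3)]
    intro i
    refine le_trans ?_ h3'
    rw [Real.norm_eq_abs]
    exact abs_le_of_sq_le_sq' (by nlinarith [key i]) (by linarith) |> abs_le.2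

theorem H3_bound {K : Set H3} (hK : IsCompact K) : ∃ R : ℝ, ∀ x ∈ K, x.1 0 ≤ R := by
  obtain ⟨R, hR⟩ := hK.bddAbove_image (f := fun x : H3 => x.1 0)
    ((continuous_apply 0).comp continuous_subtype_val).continuousOn
  exact ⟨R, fun x hx => hR (mem_image_of_mem _ hx)⟩

theorem num_ICoc {a b c A B C m : ℝ} (ha : 0 < a) (hm : 0 < m) (h1 : a * b * A = 2)
    (h2 : a * c * B = 1) (h3 : b * c * C = 1) (hA : m ≤ A) (hB : m ≤ B) (hC : C ≤ 2) :
    a ≤ 2 / m := by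
  have h4 : a ^ 2 * (A * B) = 2 * C := by
    linear_combination (-(a ^ 2 * (A * B))) * h3 + (C * (a * c * B)) * h1 + (2 * C) * h2
  have h5 : m * m ≤ A * B := mul_le_mul hA hB hm.le (hm.le.trans hA)
  have h6 := mul_le_mul_of_nonneg_left h5 (sq_nonneg a)
  rw [le_div_iff₀ hm]
  have h7 : (a * m) ^ 2 ≤ 2 ^ 2 := by nlinarith
  exact (pow_le_pow_iff_left₀ (by positivity) (by norm_num) two_ne_zero).1 h7

omit [CompactSpace Z] [ContinuousConstSMul G Z] in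
theorem ray_ICoc {n : Z → Fin 4 → ℝ} (h : NMI G n) {a : Fin 4 → ℝ} (ha : mink a a = 0)
    (h0 : 0 < a 0) : ∃ ξ, a = a 0 • n ξ := by
  obtain ⟨ξ, e⟩ := h.onto ((a 0)⁻¹ • a) (by rw [mink_smul_left, mink_smul_right, ha]; simp)
    (by simp [h0.ne'])
  exact ⟨ξ, by rw [e, smul_smul, mul_inv_cancel₀ h0.ne', one_smul]⟩

theorem ActI.cocompact (X : GP G Z) {n : Z → Fin 4 → ℝ} (h : NMI G n)
    {L : G → (Fin 4 → ℝ) →ₗ[ℝ] (Fin 4 → ℝ)} (hL : ActI n L) :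
    ∃ R : ℝ, ∀ x : Fin 4 → ℝ, mink x x = 1 → 0 < x 0 → ∃ g : G, L g x 0 ≤ R := by
  obtain ⟨c, hc, hT⟩ := X.triples
  obtain ⟨m, hm, hl⟩ := h.lower hc
  refine ⟨2 / m, fun x hx hx0 => ?_⟩
  obtain ⟨a, b, d, ha, hb, hd, a0, b0, d0, hab, had, hbd, e⟩ := mink_frame hx hx0
  obtain ⟨α, ea⟩ := ray_ICoc h ha a0
  obtain ⟨β, eb⟩ := ray_ICoc h hb b0
  obtain ⟨γ, ed⟩ := ray_ICoc h hd d0
  have hne : ∀ {u v : Fin 4 → ℝ} {ξ ζ : Z}, u = u 0 • n ξ → v = v 0 • n ζ → mink u v ≠ 0 →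
      ξ ≠ ζ := by
    rintro u v ξ ζ eu ev h0 rfl
    apply h0
    rw [eu, ev, mink_smul_left, mink_smul_right, h.null, mul_zero, mul_zero]
  have n1 := hne ea eb (by rw [hab]; norm_num)
  have n2 := hne ea ed (by rw [had]; norm_num)
  have n3 := hne eb ed (by rw [hbd]; norm_num)
  obtain ⟨g, hg⟩ := hT ![α, β, γ] (by
    intro i j
    fin_cases i <;> fin_cases j <;> simp [n1, n2, n3, n1.symm, n2.symm, n3.symm])
  have hr : ∀ {u : Fin 4 → ℝ} {ξ : Z}, u = u 0 • n ξ → 0 < u 0 →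
      ∃ μ > (0 : ℝ), L g u = μ • n (g • ξ) := by
    intro u ξ eu h0
    obtain ⟨t, ht, et⟩ := hL.ray g ξ
    exact ⟨u 0 * t, mul_pos h0 ht, by rw [← smul_smul, ← et, ← map_smul, ← eu]⟩
  obtain ⟨μ0, p0, e0⟩ := hr ea a0
  obtain ⟨μ1, p1, e1⟩ := hr eb b0
  obtain ⟨μ2, p2, e2⟩ := hr ed d0
  have q01 := hL.iso g a b
  have q02 := hL.iso g a d
  have q12 := hL.iso g b d
  rw [e0, e1, mink_smul_left, mink_smul_right, hab, ← mul_assoc] at q01
  rw [e0, e2, mink_smul_left, mink_smul_right, had, ← mul_assoc] at q02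
  rw [e1, e2, mink_smul_left, mink_smul_right, hbd, ← mul_assoc] at q12
  have hu : ∀ ξ ζ, mink (n ξ) (n ζ) ≤ 2 := fun ξ ζ =>
    mink_null_le (h.null ξ) (h.null ζ) (h.one ξ) (h.one ζ)
  have l01 : m ≤ mink (n (g • α)) (n (g • β)) := hl _ _ (hg 0 1 (by decide))
  have l02 : m ≤ mink (n (g • α)) (n (g • γ)) := hl _ _ (hg 0 2 (by decide))
  have l12 : m ≤ mink (n (g • β)) (n (g • γ)) := hl _ _ (hg 1 2 (by decide))
  have r0 := num_ICoc p0 hm q01 q02 q12 l01 l02 (hu _ _)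
  have r1 := num_ICoc p1 hm (by rw [mul_comm μ1]; exact q01) q12 q02 l01 l12 (hu _ _)
  refine ⟨g, ?_⟩
  rw [e, map_smul, map_add, e0, e1]
  simp only [Pi.smul_apply, Pi.add_apply, smul_eq_mul, h.one]
  linarith

end Vale.Agent.P198
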