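import Vale.Agent.P198.G.Main

/-! # P198 block I: definitions (FROZEN) -/

namespace Vale.Agent.P198
open Set Metric Filter Topology MeasureTheory
variable {G Z : Type} [Group G] [MetricSpace Z] [CompactSpace Z] [MulAction G Z]
  [ContinuousConstSMul G Z]

/-- The null vector of the spinor `(u, v)`. -/
def spI (u v : ℂ) : Fin 4 → ℝ :=
  ![Complex.normSq u + Complex.normSq v, 2 * (u.re * v.re + u.im * v.im),
    2 * (u.im * v.re - u.re * v.im), Complex.normSq u - Complex.normSq v]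

open Classical in
/-- The normalised null vector of a boundary point. -/
noncomputable def nmapI {Z : Type} (η : Z) (κ : Z → ℂ) (ξ : Z) : Fin 4 → ℝ :=
  if ξ = η then spI 1 0 else (1 + Complex.normSq (κ ξ))⁻¹ • spI (κ ξ) 1

/-- `n` identifies `Z` with the sphere of null directions, and `G` acts by Lorentz maps. -/
structure NMI (G : Type) {Z : Type} [Group G] [MetricSpace Z] [MulAction G Z]
    (n : Z → Fin 4 → ℝ) : Prop where
  cont : Continuous n
  one : ∀ ξ, n ξ 0 = 1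
  null : ∀ ξ, mink (n ξ) (n ξ) = 0
  onto : ∀ v : Fin 4 → ℝ, mink v v = 0 → v 0 = 1 → ∃ ξ, n ξ = v
  inj : Function.Injective n
  lor : ∀ g : G, ∃ L : (Fin 4 → ℝ) →ₗ[ℝ] (Fin 4 → ℝ), (∀ x y, mink (L x) (L y) = mink x y) ∧
    ∀ ξ, ∃ t > (0 : ℝ), L (n ξ) = t • n (g • ξ)

/-- A Lorentz representation inducing the action on `Z`. -/
structure ActI {G Z : Type} [Group G] [MulAction G Z] (n : Z → Fin 4 → ℝ)
    (L : G → (Fin 4 → ℝ) →ₗ[ℝ] (Fin 4 → ℝ)) : Prop where
  iso : ∀ g x y, mink (L g x) (L g y) = mink x y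
  ray : ∀ g ξ, ∃ t > (0 : ℝ), L g (n ξ) = t • n (g • ξ)
  one : ∀ x, L 1 x = x
  mul : ∀ g h x, L (g * h) x = L g (L h x)
  pos : ∀ g x, mink x x = 1 → 0 < x 0 → 0 < L g x 0

end Vale.Agent.P198
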