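import Vale.Agent.P198.I.Nmap

/-! # P198 I/Ext: the Lorentz map of a group element

* `nmap_off`: `lor_sigma`; `t = c σκ + d ≠ 0` (else `a σκ + b = 0` too and
  `a d - b c = a (cz+d) - c (az+b) = 0`); `(aσκ+b, cσκ+d) = t (κ(gξ), 1)`, `spI_smul`.
* `ray_extend`: the set `{ξ | L (n ξ) = (L (n ξ) 0) • n (g • ξ) ∧ 0 ≤ L (n ξ) 0}` is closed (`L` is
  continuous: `LinearMap.continuous_of_finiteDimensional`) and contains the dense set
  `{η}ᶜ ∩ {g⁻¹ • η}ᶜ` (`sph_conn`: `Z` is connected and infinite, so has no isolated point: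
  `ConnectedSpace.neBot_nhdsWithin_compl_of_nontrivial_of_t1space`, `dense_compl_singleton`,
  `Dense.inter_of_isOpen_left`). If `L (n ξ) 0 = 0` then `L (n ξ) = 0`, so `mink (n ξ) y = 0` for all
  `y`, `n ξ = 0` (`mink_nondeg`), against `n ξ 0 = 1`. -/

namespace Vale.Agent.P198
open Set Metric Filter Topology MeasureTheory
variable {G Z : Type} [Group G] [MetricSpace Z] [CompactSpace Z] [MulAction G Z]
  [ContinuousConstSMul G Z]

theorem nmap_off {η : Z} {κ : Z → ℂ} (h : Mob G η κ) (g : G) :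
    ∃ L : (Fin 4 → ℝ) →ₗ[ℝ] (Fin 4 → ℝ), (∀ x y, mink (L x) (L y) = mink x y) ∧
      ∀ ξ, ξ ≠ η → g • ξ ≠ η → ∃ t > (0 : ℝ), L (nmapI η κ ξ) = t • nmapI η κ (g • ξ) := by
  obtain ⟨a, b, c, d, hdet, σ, hσ, hm⟩ := h.mob g
  obtain ⟨L, hL, s, hs, hr⟩ := lor_sigma hdet hσ
  refine ⟨L, hL, fun ξ h1 h2 => ?_⟩
  have e := hm ξ h1 h2
  have t0 : c * σ (κ ξ) + d ≠ 0 := fun h0 => by
    rw [h0, mul_zero] at e
    exact hdet (by linear_combination a * h0 + c * e)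
  have e2 : spI (a * σ (κ ξ) + b) (c * σ (κ ξ) + d) =
      Complex.normSq (c * σ (κ ξ) + d) • spI (κ (g • ξ)) 1 := by
    rw [← spI_smul, mul_one, mul_comm (c * σ (κ ξ) + d), e]
  have p1 : 0 < 1 + Complex.normSq (κ ξ) := by linarith [Complex.normSq_nonneg (κ ξ)]
  have p2 : 0 < 1 + Complex.normSq (κ (g • ξ)) := by linarith [Complex.normSq_nonneg (κ (g • ξ))]
  have p3 : 0 < Complex.normSq (c * σ (κ ξ) + d) := Complex.normSq_pos.2 t0
  refine ⟨(1 + Complex.normSq (κ ξ))⁻¹ * s * Complex.normSq (c * σ (κ ξ) + d) *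
    (1 + Complex.normSq (κ (g • ξ))), by positivity, ?_⟩
  simp only [nmapI, if_neg h1, if_neg h2, map_smul, hr, e2, smul_smul]
  congr 1
  field_simp

theorem ray_extend (hZ : Nonempty (Z ≃ₜ S2)) {n : Z → Fin 4 → ℝ} (hn : Continuous n)
    (h1 : ∀ ξ, n ξ 0 = 1) {η : Z} {g : G} {L : (Fin 4 → ℝ) →ₗ[ℝ] (Fin 4 → ℝ)}
    (hL : ∀ x y, mink (L x) (L y) = mink x y)
    (h : ∀ ξ, ξ ≠ η → g • ξ ≠ η → ∃ t > (0 : ℝ), L (n ξ) = t • n (g • ξ)) (ξ : Z) :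
    ∃ t > (0 : ℝ), L (n ξ) = t • n (g • ξ) := by
  obtain ⟨_, _, _⟩ := sph_conn hZ
  have hd : Dense (({η}ᶜ : Set Z) ∩ {g⁻¹ • η}ᶜ) :=
    (dense_compl_singleton η).inter_of_isOpen_left (dense_compl_singleton _) isOpen_compl_singleton
  have c1 : Continuous fun ξ => L (n ξ) := L.continuous_of_finiteDimensional.comp hn
  have c2 : Continuous fun ξ => L (n ξ) 0 := (continuous_apply 0).comp c1
  have hc : IsClosed {ξ | L (n ξ) = L (n ξ) 0 • n (g • ξ) ∧ 0 ≤ L (n ξ) 0} :=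
    (isClosed_eq c1 (c2.smul (hn.comp (continuous_const_smul g)))).inter
      (isClosed_le continuous_const c2)
  have hs : ({η}ᶜ : Set Z) ∩ {g⁻¹ • η}ᶜ ⊆
      {ξ | L (n ξ) = L (n ξ) 0 • n (g • ξ) ∧ 0 ≤ L (n ξ) 0} := fun ζ hζ => by
    obtain ⟨t, ht, e⟩ := h ζ hζ.1 fun e => hζ.2 (by rw [← e, inv_smul_smul]; rfl)
    have e0 : L (n ζ) 0 = t := by rw [e, Pi.smul_apply, h1, smul_eq_mul, mul_one]
    exact ⟨by rw [e0, e], by rw [e0]; exact ht.le⟩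
  obtain ⟨e, e0⟩ := closure_minimal hs hc (hd ξ)
  refine ⟨L (n ξ) 0, e0.lt_of_ne fun h0 => ?_, e⟩
  rw [← h0, zero_smul] at e
  have : n ξ = 0 := mink_nondeg fun y => by
    rw [← hL, e]
    simp [mink]
  have h2 := h1 ξ
  rw [this] at h2
  exact zero_ne_one h2

theorem Mob.nm (hZ : Nonempty (Z ≃ₜ S2)) {η : Z} {κ : Z → ℂ} (h : Mob G η κ) :
    NMI G (nmapI η κ) := by
  refine ⟨nmap_cont h, nmap_one η κ, nmap_null η κ, nmap_onto h, nmap_inj h, fun g => ?_⟩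
  obtain ⟨L, hL, hr⟩ := nmap_off h g
  exact ⟨L, hL, ray_extend hZ (nmap_cont h) (nmap_one η κ) hL hr⟩

end Vale.Agent.P198
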