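import Vale.Agent.P198.I.Mink

/-! # P198 I/Hom: uniqueness of the Lorentz maps, the representation

* `NMI.unique`: choose `t`, `t'`; for `ξ ≠ ζ`, `t ξ * t ζ * m = mink (n ξ) (n ζ) = t' ξ * t' ζ * m` with
  `m = mink (n (g•ξ)) (n (g•ζ)) > 0`. Use the four points `ξ_i` with `n ξ_i = (1,1,0,0), (1,-1,0,0),
  (1,0,1,0), (1,0,0,1)` (`onto`): `s = t / t'` has `s_i s_j = 1` for `i ≠ j`, `s_i > 0`, so `s_i = 1`;
  the four vectors span: `x = α (1,1,0,0) + β (1,-1,0,0) + x2 (1,0,1,0) + x3 (1,0,0,1)`,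
  `α + β = x0 - x2 - x3`, `α - β = x1`.
* `NMI.time`: `2 * (L x 0) = mink (L x) (1,1,0,0) + mink (L x) (1,-1,0,0)`; each null vector is
  `n (g • ξ)` (`ξ = g⁻¹ • ξ'`), `t * mink (L x) (n (g•ξ)) = mink x (n ξ) > 0` by `mink_bounds`.
* `NMI.act`: choose `L g`; `unique` for `1` (compare with `LinearMap.id`) and `g * h` (compare with
  `(L g).comp (L h)`). -/

namespace Vale.Agent.P198
open Set Metric Filter Topology MeasureTheory
variable {G Z : Type} [Group G] [MetricSpace Z] [CompactSpace Z] [MulAction G Z]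
  [ContinuousConstSMul G Z]

theorem three_IHom {a b c a' b' c' : ℝ} (ha : 0 < a) (ha' : 0 < a') (hb : 0 < b) (hc : 0 < c)
    (h1 : a * b = a' * b') (h2 : a * c = a' * c') (h3 : b * c = b' * c') : a = a' := by
  refine (sq_eq_sq₀ ha.le ha'.le).1 (mul_right_cancel₀ (mul_pos hb hc).ne' ?_)
  linear_combination a * c * h1 + a' * b' * h2 - a' ^ 2 * h3

theorem NMI.pos {n : Z → Fin 4 → ℝ} (h : NMI G n) {ξ ζ : Z} (hne : ξ ≠ ζ) :
    0 < mink (n ξ) (n ζ) := by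
  exact mink_null_pos (h.null ξ) (h.null ζ) (h.one ξ) (h.one ζ) (h.inj.ne hne)

theorem NMI.unique {n : Z → Fin 4 → ℝ} (h : NMI G n) (g : G)
    {L L' : (Fin 4 → ℝ) →ₗ[ℝ] (Fin 4 → ℝ)} (hL : ∀ x y, mink (L x) (L y) = mink x y)
    (hL' : ∀ x y, mink (L' x) (L' y) = mink x y)
    (hr : ∀ ξ, ∃ t > (0 : ℝ), L (n ξ) = t • n (g • ξ))
    (hr' : ∀ ξ, ∃ t > (0 : ℝ), L' (n ξ) = t • n (g • ξ)) : L = L' := by
  choose t ht hr using hr
  choose t' ht' hr' using hr'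
  have k1 : ∀ ξ ζ, ξ ≠ ζ → t ξ * t ζ = t' ξ * t' ζ := fun ξ ζ hne => by
    have a1 := hL (n ξ) (n ζ)
    have a2 := hL' (n ξ) (n ζ)
    rw [hr, hr, mink_smul_left, mink_smul_right] at a1
    rw [hr', hr', mink_smul_left, mink_smul_right] at a2
    refine mul_right_cancel₀ (h.pos ((MulAction.injective g).ne hne)).ne' ?_
    linear_combination a1 - a2
  have k2 : ∀ ξ ζ θ, n ξ ≠ n ζ → n ξ ≠ n θ → n ζ ≠ n θ → L (n ξ) = L' (n ξ) :=
    fun ξ ζ θ a1 a2 a3 => by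
      rw [hr, hr', three_IHom (ht ξ) (ht' ξ) (ht ζ) (ht θ) (k1 ξ ζ (ne_of_apply_ne n a1))
        (k1 ξ θ (ne_of_apply_ne n a2)) (k1 ζ θ (ne_of_apply_ne n a3))]
  obtain ⟨a, ha⟩ := h.onto ![1, 1, 0, 0] (by simp [mink]) rfl
  obtain ⟨b, hb⟩ := h.onto ![1, -1, 0, 0] (by simp [mink]) rfl
  obtain ⟨c, hc⟩ := h.onto ![1, 0, 1, 0] (by simp [mink]) rfl
  obtain ⟨d, hd⟩ := h.onto ![1, 0, 0, 1] (by simp [mink]) rfl
  have ab : n a ≠ n b := ne_of_apply_ne (· 1) (by rw [ha, hb]; norm_num)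
  have ac : n a ≠ n c := ne_of_apply_ne (· 1) (by rw [ha, hc]; norm_num)
  have ad : n a ≠ n d := ne_of_apply_ne (· 1) (by rw [ha, hd]; norm_num)
  have bc : n b ≠ n c := ne_of_apply_ne (· 1) (by rw [hb, hc]; norm_num)
  have bd : n b ≠ n d := ne_of_apply_ne (· 1) (by rw [hb, hd]; norm_num)
  refine LinearMap.ext fun x => ?_
  have e : x = ((x 0 - x 2 - x 3 + x 1) / 2) • n a + ((x 0 - x 2 - x 3 - x 1) / 2) • n b +
      x 2 • n c + x 3 • n d := by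
    rw [ha, hb, hc, hd]
    funext i
    fin_cases i <;> simp <;> ring
  rw [e]
  simp only [map_add, map_smul, k2 a b c ab ac bc, k2 b a c ab.symm bc ac,
    k2 c a b ac.symm bc.symm ab, k2 d a b ad.symm bd.symm ab]

theorem NMI.time {n : Z → Fin 4 → ℝ} (h : NMI G n) (g : G)
    {L : (Fin 4 → ℝ) →ₗ[ℝ] (Fin 4 → ℝ)} (hL : ∀ x y, mink (L x) (L y) = mink x y)
    (hr : ∀ ξ, ∃ t > (0 : ℝ), L (n ξ) = t • n (g • ξ)) {x : Fin 4 → ℝ} (hx : mink x x = 1)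
    (hx0 : 0 < x 0) : 0 < L x 0 := by
  have k : ∀ ξ, 0 < mink (L x) (n ξ) := fun ξ => by
    obtain ⟨t, ht, e⟩ := hr (g⁻¹ • ξ)
    have a1 := (mink_bounds hx hx0 le_rfl (h.null (g⁻¹ • ξ)) (h.one _)).2.1
    rw [← hL, e, smul_inv_smul, mink_smul_right] at a1
    exact (mul_pos_iff_of_pos_left ht).1 a1
  obtain ⟨a, ha⟩ := h.onto ![1, 1, 0, 0] (by simp [mink]) rfl
  obtain ⟨b, hb⟩ := h.onto ![1, -1, 0, 0] (by simp [mink]) rfl
  have a1 := k a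
  have a2 := k b
  rw [ha] at a1
  rw [hb] at a2
  simp [mink] at a1 a2
  linarith

theorem NMI.act {n : Z → Fin 4 → ℝ} (h : NMI G n) :
    ∃ L : G → (Fin 4 → ℝ) →ₗ[ℝ] (Fin 4 → ℝ), ActI n L := by
  choose L h1 h2 using h.lor
  refine ⟨L, h1, h2, fun x => ?_, fun g g' x => ?_, fun g x hx hx0 => h.time g (h1 g) (h2 g) hx hx0⟩
  · exact LinearMap.congr_fun (h.unique 1 (L' := LinearMap.id) (h1 1) (fun _ _ => rfl) (h2 1)
      fun ξ => ⟨1, one_pos, by simp⟩) x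
  · refine LinearMap.congr_fun (h.unique (g * g') (L' := (L g).comp (L g')) (h1 _)
      (fun x y => (h1 g _ _).trans (h1 g' x y)) (h2 _) fun ξ => ?_) x
    obtain ⟨t, ht, e⟩ := h2 g' ξ
    obtain ⟨t', ht', e'⟩ := h2 g (g' • ξ)
    exact ⟨t * t', mul_pos ht ht', by
      rw [LinearMap.comp_apply, e, map_smul, e', smul_smul, mul_smul g g' ξ]⟩

end Vale.Agent.P198
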