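import Vale.Agent.P198.I.Mink

/-! # P198 I/Lor: the Lorentz map of a Moebius or anti-Moebius map

`spI u v` is the Hermitian matrix `(u,v)(u,v)*`: `p = (x0+x3)/2 = |u|^2`, `r = (x0-x3)/2 = |v|^2`,
`w = (x1 + i x2)/2 = u * conj v`.
* `lor_mat`: `H ↦ A H A*`: `p' = |a|^2 p + 2 Re(a conj b w) + |b|^2 r`,
  `r' = |c|^2 p + 2 Re(c conj d w) + |d|^2 r`,
  `w' = a conj c p + a conj d w + b conj c conj w + b conj d r`, and
  `L x = ![p' + r', 2 Re w', 2 Im w', p' - r']`. Write everything in the real and imaginary parts of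
  `a b c d` (e.g. `L = Matrix.toLin'`/`Matrix.mulVecLin` of an explicit real `4 × 4` matrix, or an
  explicit `LinearMap` with `map_add'`, `map_smul'` by `ext i; fin_cases i <;> simp <;> ring`);
  both claims are `ring` identities after `simp [mink, spI, Complex.normSq_apply]`.
* `lor_conj`: `x2 ↦ -x2`.
* `lor_sigma`: compose, then rescale by `s = (Real.sqrt (normSq (a*d-b*c)))⁻¹`. -/

namespace Vale.Agent.P198
open Set Metric Filter Topology MeasureTheory
variable {G Z : Type} [Group G] [MetricSpace Z] [CompactSpace Z] [MulAction G Z]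
  [ContinuousConstSMul G Z]

theorem spI_null (u v : ℂ) : mink (spI u v) (spI u v) = 0 := by
  simp [mink, spI, Complex.normSq_apply]
  ring

theorem spI_smul (t u v : ℂ) : spI (t * u) (t * v) = Complex.normSq t • spI u v := by
  ext i
  fin_cases i <;> simp [spI, Complex.normSq_apply] <;> ring

/-- The sesquilinear pairing of two rows with the Hermitian matrix of `x`: real part. -/
def re_ILor (a b c d : ℂ) (x : Fin 4 → ℝ) : ℝ :=
  (a.re * c.re + a.im * c.im) * (x 0 + x 3) + (b.re * d.re + b.im * d.im) * (x 0 - x 3) +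
    (a.re * d.re + a.im * d.im + b.re * c.re + b.im * c.im) * x 1 +
    (a.re * d.im - a.im * d.re + b.im * c.re - b.re * c.im) * x 2

/-- The imaginary part. -/
def im_ILor (a b c d : ℂ) (x : Fin 4 → ℝ) : ℝ :=
  (a.im * c.re - a.re * c.im) * (x 0 + x 3) + (b.im * d.re - b.re * d.im) * (x 0 - x 3) +
    (a.im * d.re - a.re * d.im + b.im * c.re - b.re * c.im) * x 1 +
    (a.re * d.re + a.im * d.im - b.re * c.re - b.im * c.im) * x 2

theorem re_sp_ILor (a b c d u v : ℂ) : re_ILor a b c d (spI u v) =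
    2 * ((a * u + b * v).re * (c * u + d * v).re + (a * u + b * v).im * (c * u + d * v).im) := by
  simp [spI, re_ILor, Complex.normSq_apply]
  ring

theorem im_sp_ILor (a b c d u v : ℂ) : im_ILor a b c d (spI u v) =
    2 * ((a * u + b * v).im * (c * u + d * v).re - (a * u + b * v).re * (c * u + d * v).im) := by
  simp [spI, im_ILor, Complex.normSq_apply]
  ring

theorem det_ILor (a b c d : ℂ) (x y : Fin 4 → ℝ) :
    (re_ILor a b a b x * re_ILor c d c d y + re_ILor c d c d x * re_ILor a b a b y) / 2 -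
      re_ILor a b c d x * re_ILor a b c d y - im_ILor a b c d x * im_ILor a b c d y =
      Complex.normSq (a * d - b * c) * mink x y := by
  simp only [mink, re_ILor, im_ILor, Complex.normSq_apply, Complex.sub_re, Complex.sub_im,
    Complex.mul_re, Complex.mul_im]
  ring

theorem lor_mat (a b c d : ℂ) : ∃ L : (Fin 4 → ℝ) →ₗ[ℝ] (Fin 4 → ℝ),
    (∀ x y, mink (L x) (L y) = Complex.normSq (a * d - b * c) * mink x y) ∧
    ∀ u v, L (spI u v) = spI (a * u + b * v) (c * u + d * v) := by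
  have r1 : ∀ a b c d x y, re_ILor a b c d (x + y) = re_ILor a b c d x + re_ILor a b c d y :=
    fun a b c d x y => by simp only [re_ILor, Pi.add_apply]; ring
  have r2 : ∀ a b c d x y, im_ILor a b c d (x + y) = im_ILor a b c d x + im_ILor a b c d y :=
    fun a b c d x y => by simp only [im_ILor, Pi.add_apply]; ring
  have r3 : ∀ a b c d (t : ℝ) x, re_ILor a b c d (t • x) = t * re_ILor a b c d x :=
    fun a b c d x y => by simp only [re_ILor, Pi.smul_apply, smul_eq_mul]; ring
  have r4 : ∀ a b c d (t : ℝ) x, im_ILor a b c d (t • x) = t * im_ILor a b c d x :=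
    fun a b c d x y => by simp only [im_ILor, Pi.smul_apply, smul_eq_mul]; ring
  refine ⟨⟨⟨fun x => ![(re_ILor a b a b x + re_ILor c d c d x) / 2, re_ILor a b c d x,
    im_ILor a b c d x, (re_ILor a b a b x - re_ILor c d c d x) / 2], fun x y => ?_⟩,
    fun t x => ?_⟩, fun x y => ?_, fun u v => ?_⟩
  · ext i
    fin_cases i <;> simp [r1, r2] <;> ring
  · ext i
    fin_cases i <;> simp [r3, r4] <;> ring
  · rw [← det_ILor]
    simp [mink]
    ring
  · simp only [LinearMap.coe_mk, AddHom.coe_mk, re_sp_ILor, im_sp_ILor]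
    generalize a * u + b * v = p
    generalize c * u + d * v = q
    ext i
    fin_cases i <;> simp [spI, Complex.normSq_apply] <;> ring

theorem lor_conj : ∃ L : (Fin 4 → ℝ) →ₗ[ℝ] (Fin 4 → ℝ), (∀ x y, mink (L x) (L y) = mink x y) ∧
    ∀ u v, L (spI u v) = spI (starRingEnd ℂ u) (starRingEnd ℂ v) := by
  refine ⟨⟨⟨fun x => ![x 0, x 1, -x 2, x 3], fun x y => ?_⟩, fun t x => ?_⟩, fun x y => ?_,
    fun u v => ?_⟩
  · ext i
    fin_cases i <;> simp [add_comm]
  · ext i
    fin_cases i <;> simp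
  · simp [mink]
  · ext i
    fin_cases i <;> simp [spI]
    ring

theorem lor_sigma {a b c d : ℂ} (hdet : a * d - b * c ≠ 0) {σ : ℂ →+* ℂ}
    (hσ : σ = RingHom.id ℂ ∨ σ = starRingEnd ℂ) : ∃ L : (Fin 4 → ℝ) →ₗ[ℝ] (Fin 4 → ℝ),
    (∀ x y, mink (L x) (L y) = mink x y) ∧ ∃ s > (0 : ℝ),
      ∀ z, L (spI z 1) = s • spI (a * σ z + b) (c * σ z + d) := by
  obtain ⟨L, h1, h2⟩ := lor_mat a b c d
  obtain ⟨M, m1, m2⟩ : ∃ M : (Fin 4 → ℝ) →ₗ[ℝ] (Fin 4 → ℝ), (∀ x y, mink (M x) (M y) = mink x y) ∧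
      ∀ z, M (spI z 1) = spI (σ z) 1 := by
    rcases hσ with rfl | rfl
    · exact ⟨LinearMap.id, fun _ _ => rfl, fun _ => rfl⟩
    · obtain ⟨M, m1, m2⟩ := lor_conj
      exact ⟨M, m1, fun z => by rw [m2, map_one]⟩
  have hp := Complex.normSq_pos.2 hdet
  have hs := Real.sqrt_pos.2 hp
  refine ⟨(√(Complex.normSq (a * d - b * c)))⁻¹ • L ∘ₗ M, fun x y => ?_, _, inv_pos.2 hs,
    fun z => ?_⟩
  · rw [LinearMap.smul_apply, LinearMap.smul_apply, mink_smul_left, mink_smul_right,
      LinearMap.comp_apply, LinearMap.comp_apply, h1, m1, ← mul_assoc, ← mul_assoc, ← mul_inv,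
      Real.mul_self_sqrt hp.le, inv_mul_cancel₀ hp.ne', one_mul]
  · rw [LinearMap.smul_apply, LinearMap.comp_apply, m2, h2, mul_one, mul_one]

end Vale.Agent.P198
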