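import Vale.Agent.P198.I.Ext
import Vale.Agent.P198.I.Coc

/-! # P198 block I: the action on hyperbolic space (interface) -/

namespace Vale.Agent.P198
open Set Metric Filter Topology MeasureTheory
variable {G Z : Type} [Group G] [MetricSpace Z] [CompactSpace Z] [MulAction G Z]
  [ContinuousConstSMul G Z]

/-- The permutation of `H3` given by a Lorentz representation. -/
def ActI.perm {n : Z → Fin 4 → ℝ} {L : G → (Fin 4 → ℝ) →ₗ[ℝ] (Fin 4 → ℝ)} (hL : ActI n L)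
    (g : G) : Equiv.Perm H3 where
  toFun x := ⟨L g x.1, (hL.iso g _ _).trans x.2.1, hL.pos g _ x.2.1 x.2.2⟩
  invFun x := ⟨L g⁻¹ x.1, (hL.iso g⁻¹ _ _).trans x.2.1, hL.pos g⁻¹ _ x.2.1 x.2.2⟩
  left_inv x := Subtype.ext (by simp only; rw [← hL.mul, inv_mul_cancel, hL.one])
  right_inv x := Subtype.ext (by simp only; rw [← hL.mul, mul_inv_cancel, hL.one])

theorem GP.geometric (X : GP G Z) {η : Z} {κ : Z → ℂ} (h : Mob G η κ) :
    ∃ ρ : G →* Equiv.Perm H3, Geometric ρ := by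
  have hn := h.nm X.sph
  obtain ⟨L, hL⟩ := hn.act
  let ρ : G →* Equiv.Perm H3 :=
    MonoidHom.mk' (fun g => hL.perm g) fun g k => Equiv.ext fun x => Subtype.ext (hL.mul g k x.1)
  have hρ : ∀ g x, (ρ g x).1 = L g x.1 := fun _ _ => rfl
  refine ⟨ρ, fun g x y => ?_, fun K hK => ?_, ?_, ?_⟩
  · simp only [hdist, hρ, hL.iso]
  · obtain ⟨R, hR⟩ := H3_bound hK
    refine (hL.finite X hn R).subset ?_
    rintro g ⟨_, ⟨x, hx, rfl⟩, hgx⟩
    exact ⟨x.1, x.2.1, x.2.2, hR x hx, hR _ hgx⟩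
  · obtain ⟨R, hR⟩ := hL.cocompact X hn
    exact ⟨_, H3_compact R, fun x => hR x.1 x.2.1 x.2.2⟩
  · refine (hL.finite X hn 1).subset fun g hg => ?_
    have hg' : ρ g = 1 := hg
    let e : H3 := ⟨![1, 0, 0, 0], by simp [mink], by simp⟩
    refine ⟨e.1, e.2.1, e.2.2, by simp [e], ?_⟩
    rw [← hρ, hg']
    simp [e]

end Vale.Agent.P198
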