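import Vale.Agent.P198.I.Defs

/-! # P198 I/Mink: elementary Minkowski geometry

All statements are polynomial (in)equalities in the four coordinates: `simp [mink]`, `ring`,
`nlinarith`.
* `mink_null_pos`: `2 * mink v w = (v1-w1)^2+(v2-w2)^2+(v3-w3)^2` for null `v`, `w` with `v0 = w0 = 1`.
* `mink_bounds`: with `s = x1 v1 + x2 v2 + x3 v3`, Cauchy-Schwarz gives `s^2 ≤ x0^2 - 1`, so
  `(x0 - s)(x0 + s) ≥ 1`, `|s| < x0`, `x0 + s ≤ 2R`, `x0 - s ≤ 2R`.
* `mink_time_pos`: Cauchy-Schwarz `(m⃗·x⃗)^2 ≤ m0^2 (x0^2 - 1)`; `m0 ≤ 0` is impossible.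
* `mink_frame`: `e = (1,0,0,0)`, `T y = -y + (mink y (x+e) / (1 + x0)) • (x+e)` preserves `mink`
  (`mink (x+e) (x+e) = 2 + 2 x0`), `T e = x`; take `a, b, c = T (1,1,0,0), T (1,-1,0,0), T (1,0,1,0)`;
  `mink a x = mink (T _) (T e) = 1 > 0`, then `mink_time_pos`. -/

namespace Vale.Agent.P198
open Set Metric Filter Topology MeasureTheory
variable {G Z : Type} [Group G] [MetricSpace Z] [CompactSpace Z] [MulAction G Z]
  [ContinuousConstSMul G Z]

theorem mink_symm (x y : Fin 4 → ℝ) : mink x y = mink y x := by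
  unfold mink
  ring

theorem mink_smul_left (t : ℝ) (x y : Fin 4 → ℝ) : mink (t • x) y = t * mink x y := by
  simp only [mink, Pi.smul_apply, smul_eq_mul]
  ring

theorem mink_smul_right (t : ℝ) (x y : Fin 4 → ℝ) : mink x (t • y) = t * mink x y := by
  simp only [mink, Pi.smul_apply, smul_eq_mul]
  ring

theorem mink_add_left (x y z : Fin 4 → ℝ) : mink (x + y) z = mink x z + mink y z := by
  simp only [mink, Pi.add_apply]
  ring

theorem mink_add_right (x y z : Fin 4 → ℝ) : mink x (y + z) = mink x y + mink x z := by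
  simp only [mink, Pi.add_apply]
  ring

theorem mink_continuous : Continuous fun p : (Fin 4 → ℝ) × (Fin 4 → ℝ) => mink p.1 p.2 := by
  unfold mink
  fun_prop

theorem mink_nondeg {x : Fin 4 → ℝ} (h : ∀ y, mink x y = 0) : x = 0 := by
  have h0 := h ![1, 0, 0, 0]
  have h1 := h ![0, 1, 0, 0]
  have h2 := h ![0, 0, 1, 0]
  have h3 := h ![0, 0, 0, 1]
  simp [mink] at h0 h1 h2 h3
  funext i
  fin_cases i
  exacts [h0, h1, h2, h3]

theorem mink_null_pos {v w : Fin 4 → ℝ} (hv : mink v v = 0) (hw : mink w w = 0) (hv0 : v 0 = 1)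
    (hw0 : w 0 = 1) (hne : v ≠ w) : 0 < mink v w := by
  unfold mink at *
  by_contra h
  have h := not_lt.1 h
  rw [hv0] at hv h
  rw [hw0] at hw h
  have e : (v 1 - w 1) ^ 2 + (v 2 - w 2) ^ 2 + (v 3 - w 3) ^ 2 ≤ 0 := by nlinarith
  have s1 := sq_nonneg (v 1 - w 1)
  have s2 := sq_nonneg (v 2 - w 2)
  have s3 := sq_nonneg (v 3 - w 3)
  have h1 : v 1 - w 1 = 0 := pow_eq_zero_iff two_ne_zero |>.1 (by linarith)
  have h2 : v 2 - w 2 = 0 := pow_eq_zero_iff two_ne_zero |>.1 (by linarith)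
  have h3 : v 3 - w 3 = 0 := pow_eq_zero_iff two_ne_zero |>.1 (by linarith)
  refine hne (funext fun i => ?_)
  fin_cases i
  exacts [hv0.trans hw0.symm, sub_eq_zero.1 h1, sub_eq_zero.1 h2, sub_eq_zero.1 h3]

theorem mink_null_le {v w : Fin 4 → ℝ} (hv : mink v v = 0) (hw : mink w w = 0) (hv0 : v 0 = 1)
    (hw0 : w 0 = 1) : mink v w ≤ 2 := by
  unfold mink at *
  rw [hv0] at hv ⊢
  rw [hw0] at hw ⊢
  nlinarith [sq_nonneg (v 1 + w 1), sq_nonneg (v 2 + w 2), sq_nonneg (v 3 + w 3)]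

theorem mink_null_zero {v : Fin 4 → ℝ} (hv : mink v v = 0) (hv0 : v 0 = 0) : v = 0 := by
  unfold mink at hv
  rw [hv0] at hv
  have s1 := sq_nonneg (v 1)
  have s2 := sq_nonneg (v 2)
  have s3 := sq_nonneg (v 3)
  have h1 : v 1 = 0 := pow_eq_zero_iff two_ne_zero |>.1 (by linarith)
  have h2 : v 2 = 0 := pow_eq_zero_iff two_ne_zero |>.1 (by linarith)
  have h3 : v 3 = 0 := pow_eq_zero_iff two_ne_zero |>.1 (by linarith)
  funext i
  fin_cases i
  exacts [hv0, h1, h2, h3]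

theorem cs_IMink (x v : Fin 4 → ℝ) : (x 1 * v 1 + x 2 * v 2 + x 3 * v 3) ^ 2 ≤
    (x 1 ^ 2 + x 2 ^ 2 + x 3 ^ 2) * (v 1 ^ 2 + v 2 ^ 2 + v 3 ^ 2) := by
  nlinarith [sq_nonneg (x 1 * v 2 - x 2 * v 1), sq_nonneg (x 1 * v 3 - x 3 * v 1),
    sq_nonneg (x 2 * v 3 - x 3 * v 2)]

theorem mink_bounds {x v : Fin 4 → ℝ} {R : ℝ} (hx : mink x x = 1) (hx0 : 0 < x 0) (hR : x 0 ≤ R)
    (hv : mink v v = 0) (hv0 : v 0 = 1) : 1 ≤ 2 * R * mink x v ∧ 0 < mink x v ∧ mink x v ≤ 2 * R := by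
  have hs := cs_IMink x v
  have e : mink x v = x 0 - (x 1 * v 1 + x 2 * v 2 + x 3 * v 3) := by
    unfold mink
    rw [hv0]
    ring
  unfold mink at hx hv
  rw [hv0] at hv
  rw [show v 1 ^ 2 + v 2 ^ 2 + v 3 ^ 2 = 1 by linarith,
    show x 1 ^ 2 + x 2 ^ 2 + x 3 ^ 2 = x 0 ^ 2 - 1 by linarith, mul_one] at hs
  rw [e]
  generalize x 1 * v 1 + x 2 * v 2 + x 3 * v 3 = s at hs ⊢
  obtain ⟨h1, h2⟩ := abs_lt_of_sq_lt_sq' (show s ^ 2 < x 0 ^ 2 by linarith) hx0.le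
  refine ⟨?_, by linarith, by linarith⟩
  nlinarith [mul_nonneg (show 0 ≤ x 0 - s by linarith) (show 0 ≤ 2 * R - (x 0 + s) by linarith)]

theorem mink_time_pos {x m : Fin 4 → ℝ} (hx : mink x x = 1) (hx0 : 0 < x 0) (hm : mink m m = 0)
    (h : 0 < mink m x) : 0 < m 0 := by
  have hs := cs_IMink m x
  have e : mink m x = m 0 * x 0 - (m 1 * x 1 + m 2 * x 2 + m 3 * x 3) := by
    unfold mink
    ring
  rw [e] at h
  unfold mink at hx hm
  rw [show m 1 ^ 2 + m 2 ^ 2 + m 3 ^ 2 = m 0 ^ 2 by linarith,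
    show x 1 ^ 2 + x 2 ^ 2 + x 3 ^ 2 = x 0 ^ 2 - 1 by linarith] at hs
  generalize m 1 * x 1 + m 2 * x 2 + m 3 * x 3 = s at hs h
  by_contra h0
  have h0 := not_lt.1 h0
  have h1 : m 0 * x 0 ≤ 0 := mul_nonpos_of_nonpos_of_nonneg h0 hx0.le
  nlinarith [sq_nonneg (m 0)]

theorem mink_frame {x : Fin 4 → ℝ} (hx : mink x x = 1) (hx0 : 0 < x 0) :
    ∃ a b c : Fin 4 → ℝ, mink a a = 0 ∧ mink b b = 0 ∧ mink c c = 0 ∧ 0 < a 0 ∧ 0 < b 0 ∧ 0 < c 0 ∧
      mink a b = 2 ∧ mink a c = 1 ∧ mink b c = 1 ∧ x = (1 / 2 : ℝ) • (a + b) := by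
  have h1 : 1 + x 0 ≠ 0 := by positivity
  let e : Fin 4 → ℝ := ![1, 0, 0, 0]
  let T : (Fin 4 → ℝ) → Fin 4 → ℝ := fun y => (-1 : ℝ) • y + (mink y (x + e) / (1 + x 0)) • (x + e)
  have he : mink e e = 1 := by simp [mink, e]
  have hxe : mink x e = x 0 := by simp [mink, e]
  have huu : mink (x + e) (x + e) = 2 * (1 + x 0) := by
    rw [mink_add_left, mink_add_right, mink_add_right, mink_symm e x, hx, he, hxe]
    ring
  have hT : ∀ y z, mink (T y) (T z) = mink y z := fun y z => by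
    simp only [T]
    generalize x + e = u at huu ⊢
    rw [mink_add_left, mink_add_right, mink_add_right]
    simp only [mink_smul_left, mink_smul_right]
    rw [huu, mink_symm u z]
    field_simp
    ring
  have hTe : T e = x := by
    simp only [T]
    rw [mink_add_right, mink_symm e x, hxe, he, add_comm (x 0), div_self h1]
    module
  have hp : ∀ y, mink y y = 0 → y 0 = 1 → 0 < T y 0 := fun y hy h0 =>
    mink_time_pos hx hx0 (by rw [hT, hy]) (by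
      rw [← hTe, hT]
      simp [mink, e, h0])
  refine ⟨T ![1, 1, 0, 0], T ![1, -1, 0, 0], T ![1, 0, 1, 0], ?_, ?_, ?_, hp _ ?_ rfl, hp _ ?_ rfl,
    hp _ ?_ rfl, ?_, ?_, ?_, ?_⟩
  iterate 3
    rw [hT]
    simp [mink]
  iterate 3 simp [mink]
  · rw [hT]
    simp [mink]
    norm_num
  iterate 2
    rw [hT]
    simp [mink]
  have ha : ∀ y z, T (y + z) = T y + T z := fun y z => by
    simp only [T]
    rw [mink_add_left, add_div]
    module
  have hab : (![1, 1, 0, 0] + ![1, -1, 0, 0] : Fin 4 → ℝ) = e + e := by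
    funext i
    fin_cases i <;> simp [e]
  rw [← ha, hab, ha, hTe]
  module

end Vale.Agent.P198
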