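import Vale.Agent.P198.I.Lor

/-! # P198 I/Nmap: the map `nmapI` is a continuous bijection onto the sphere of null directions

Off `η`: `nmapI η κ ξ = ![1, 2 Re κ / (1+|κ|^2), 2 Im κ / (1+|κ|^2), 1 - 2 / (1+|κ|^2)]`, and
`nmapI η κ η = ![1,0,0,1]`.
* `nmap_cont`: at `ξ ≠ η` use `h.cont` (the set `{η}ᶜ` is open); at `η` use
  `continuousAt_iff_punctured_nhds` (or `nhds_eq... pure ⊔ 𝓝[≠]`) with `h.inf`: `‖κ‖ → ∞`
  (`tendsto_norm_cocompact_atTop`), so `2 / (1+|κ|^2) → 0` and `|2 Re κ / (1+|κ|^2)| ≤ 2 / ‖κ‖ → 0`.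
* `nmap_onto`: if `v 3 = 1` then `v = (1,0,0,1)`; otherwise `z = (v1 + i v2) / (1 - v3)`
  (`|z|^2 = (1+v3)/(1-v3)`, `1 + |z|^2 = 2/(1-v3)`) and `h.bij.surjOn`.
* `nmap_inj`: coordinate `3` is `1` only at `η`, and it determines `1 + |κ|^2`; `h.bij.injOn`. -/

namespace Vale.Agent.P198
open Set Metric Filter Topology MeasureTheory
variable {G Z : Type} [Group G] [MetricSpace Z] [CompactSpace Z] [MulAction G Z]
  [ContinuousConstSMul G Z]

/-- The inverse stereographic projection. -/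
noncomputable def phi_INmap (z : ℂ) : Fin 4 → ℝ :=
  ![1, 2 * z.re * (1 + Complex.normSq z)⁻¹, 2 * z.im * (1 + Complex.normSq z)⁻¹,
    1 - 2 * (1 + Complex.normSq z)⁻¹]

theorem pos_INmap (z : ℂ) : 0 < 1 + Complex.normSq z := by
  linarith [Complex.normSq_nonneg z]

theorem eta_INmap {Z : Type} (η : Z) (κ : Z → ℂ) : nmapI η κ η = ![1, 0, 0, 1] := by
  ext i
  fin_cases i <;> simp [nmapI, spI]

theorem ne_INmap {Z : Type} {η ξ : Z} (κ : Z → ℂ) (h : ξ ≠ η) :
    nmapI η κ ξ = phi_INmap (κ ξ) := by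
  have := (pos_INmap (κ ξ)).ne'
  ext i
  fin_cases i <;> simp [nmapI, spI, phi_INmap, h] <;> field_simp <;> ring

theorem cont_INmap : Continuous phi_INmap := by
  have h : Continuous fun z : ℂ => (1 + Complex.normSq z)⁻¹ :=
    (continuous_const.add Complex.continuous_normSq).inv₀ fun z => (pos_INmap z).ne'
  refine continuous_pi fun i => ?_
  fin_cases i
  · exact continuous_const
  · exact (continuous_const.mul Complex.continuous_re).mul h
  · exact (continuous_const.mul Complex.continuous_im).mul h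
  · exact continuous_const.sub (continuous_const.mul h)

theorem inf_INmap : Tendsto phi_INmap (cocompact ℂ) (𝓝 ![1, 0, 0, 1]) := by
  have h1 : Tendsto (fun z : ℂ => 1 + Complex.normSq z) (cocompact ℂ) atTop := by
    refine tendsto_atTop_add_const_left _ _ ?_
    have h0 : Tendsto (fun z : ℂ => ‖z‖) (cocompact ℂ) atTop := tendsto_norm_cocompact_atTop
    exact ((tendsto_pow_atTop two_ne_zero).comp h0).congr
      fun z => (Complex.normSq_eq_norm_sq z).symm
  have h2 : Tendsto (fun z : ℂ => (1 + Complex.normSq z)⁻¹) (cocompact ℂ) (𝓝 0) :=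
    h1.inv_tendsto_atTop
  have h3 : Tendsto (fun z : ℂ => √(4 * (1 + Complex.normSq z)⁻¹)) (cocompact ℂ) (𝓝 0) := by
    simpa using (h2.const_mul 4).sqrt
  have h4 : ∀ (z : ℂ) (x : ℝ), x ^ 2 ≤ Complex.normSq z →
      ‖2 * x * (1 + Complex.normSq z)⁻¹‖ ≤ √(4 * (1 + Complex.normSq z)⁻¹) := by
    intro z x hx
    refine Real.abs_le_sqrt ?_
    have hp := pos_INmap z
    have hi := inv_pos.2 hp
    have h5 : x ^ 2 * (1 + Complex.normSq z)⁻¹ ≤ 1 := by
      rw [← div_eq_mul_inv, div_le_one hp]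
      linarith
    nlinarith [mul_le_mul_of_nonneg_left h5 hi.le]
  refine tendsto_pi_nhds.2 fun i => ?_
  fin_cases i
  · exact tendsto_const_nhds
  · exact squeeze_zero_norm (fun z => h4 z z.re (by
      rw [Complex.normSq_apply]; nlinarith [sq_nonneg z.im])) h3
  · exact squeeze_zero_norm (fun z => h4 z z.im (by
      rw [Complex.normSq_apply]; nlinarith [sq_nonneg z.re])) h3
  · have := (h2.const_mul 2).const_sub 1
    rw [mul_zero, sub_zero] at this
    exact this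

theorem inj_INmap : Function.Injective phi_INmap := by
  intro z w h
  have h1 : 2 * z.re * (1 + Complex.normSq z)⁻¹ = 2 * w.re * (1 + Complex.normSq w)⁻¹ :=
    congrFun h 1
  have h2 : 2 * z.im * (1 + Complex.normSq z)⁻¹ = 2 * w.im * (1 + Complex.normSq w)⁻¹ :=
    congrFun h 2
  have h3 : 1 - 2 * (1 + Complex.normSq z)⁻¹ = 1 - 2 * (1 + Complex.normSq w)⁻¹ := congrFun h 3
  have h4 : (1 + Complex.normSq z)⁻¹ = (1 + Complex.normSq w)⁻¹ := by linarith
  have hi := (inv_pos.2 (pos_INmap w)).ne'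
  rw [h4] at h1 h2
  exact Complex.ext (by linarith [mul_right_cancel₀ hi h1]) (by linarith [mul_right_cancel₀ hi h2])

theorem top_INmap (z : ℂ) : phi_INmap z ≠ ![1, 0, 0, 1] := by
  intro h
  have h3 : 1 - 2 * (1 + Complex.normSq z)⁻¹ = 1 := congrFun h 3
  linarith [inv_pos.2 (pos_INmap z)]

theorem nmap_one (η : Z) (κ : Z → ℂ) (ξ : Z) : nmapI η κ ξ 0 = 1 := by
  by_cases h : ξ = η
  · rw [h, eta_INmap]
    rfl
  · rw [ne_INmap κ h]
    rfl

theorem nmap_null (η : Z) (κ : Z → ℂ) (ξ : Z) : mink (nmapI η κ ξ) (nmapI η κ ξ) = 0 := by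
  by_cases h : ξ = η
  · rw [h, eta_INmap]
    simp [mink]
  · rw [ne_INmap κ h]
    have := (pos_INmap (κ ξ)).ne'
    show 1 * 1 - 2 * (κ ξ).re * (1 + Complex.normSq (κ ξ))⁻¹ *
        (2 * (κ ξ).re * (1 + Complex.normSq (κ ξ))⁻¹) -
      2 * (κ ξ).im * (1 + Complex.normSq (κ ξ))⁻¹ * (2 * (κ ξ).im * (1 + Complex.normSq (κ ξ))⁻¹) -
      (1 - 2 * (1 + Complex.normSq (κ ξ))⁻¹) * (1 - 2 * (1 + Complex.normSq (κ ξ))⁻¹) = 0
    field_simp
    rw [Complex.normSq_apply]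
    ring

theorem nmap_cont {η : Z} {κ : Z → ℂ} (h : Mob G η κ) : Continuous (nmapI η κ) := by
  refine continuous_iff_continuousAt.2 fun ξ => ?_
  by_cases hξ : ξ = η
  · rw [hξ, continuousAt_iff_punctured_nhds, eta_INmap]
    refine (inf_INmap.comp h.inf).congr' ?_
    filter_upwards [self_mem_nhdsWithin] with ζ hζ
    exact (ne_INmap κ hζ).symm
  · have hn : ({η}ᶜ : Set Z) ∈ 𝓝 ξ := isOpen_compl_singleton.mem_nhds hξ
    refine (cont_INmap.continuousAt.comp (h.cont.continuousAt hn)).congr ?_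
    filter_upwards [hn] with ζ hζ
    exact (ne_INmap κ hζ).symm

theorem nmap_onto {η : Z} {κ : Z → ℂ} (h : Mob G η κ) (v : Fin 4 → ℝ) (hv : mink v v = 0)
    (hv0 : v 0 = 1) : ∃ ξ, nmapI η κ ξ = v := by
  rw [mink, hv0] at hv
  by_cases h3 : v 3 = 1
  · refine ⟨η, ?_⟩
    rw [h3] at hv
    have h1 : v 1 = 0 := by nlinarith [mul_self_nonneg (v 1), mul_self_nonneg (v 2)]
    have h2 : v 2 = 0 := by nlinarith [mul_self_nonneg (v 1), mul_self_nonneg (v 2)]
    rw [eta_INmap]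
    ext i
    fin_cases i
    exacts [hv0.symm, h1.symm, h2.symm, h3.symm]
  · have h4 : 1 - v 3 ≠ 0 := fun e => h3 (by linarith)
    obtain ⟨ξ, hξ, e⟩ := h.bij.surjOn (mem_univ (⟨v 1 / (1 - v 3), v 2 / (1 - v 3)⟩ : ℂ))
    refine ⟨ξ, ?_⟩
    rw [ne_INmap κ hξ, e]
    have h5 : (1 + Complex.normSq (⟨v 1 / (1 - v 3), v 2 / (1 - v 3)⟩ : ℂ))⁻¹ = (1 - v 3) / 2 := by
      refine inv_eq_of_mul_eq_one_right ?_
      rw [Complex.normSq_mk]
      field_simp
      linear_combination -hv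
    ext i
    fin_cases i
    · exact hv0.symm
    · show 2 * (v 1 / (1 - v 3)) * _ = v 1
      rw [h5]
      field_simp
    · show 2 * (v 2 / (1 - v 3)) * _ = v 2
      rw [h5]
      field_simp
    · show 1 - 2 * _ = v 3
      rw [h5]
      ring

theorem nmap_inj {η : Z} {κ : Z → ℂ} (h : Mob G η κ) : Function.Injective (nmapI η κ) := by
  intro ξ ζ e
  by_cases h1 : ξ = η <;> by_cases h2 : ζ = η
  · rw [h1, h2]
  · rw [h1, eta_INmap, ne_INmap κ h2] at e
    exact absurd e.symm (top_INmap _)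
  · rw [h2, eta_INmap, ne_INmap κ h1] at e
    exact absurd e (top_INmap _)
  · rw [ne_INmap κ h1, ne_INmap κ h2] at e
    exact h.bij.injOn h1 h2 (inj_INmap e)

end Vale.Agent.P198
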