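import Vale.Agent.P198.I.Hom

/-! # P198 I/Prop: properness

* `NMI.lower`: the compact set `{p : Z × Z | c ≤ dist p.1 p.2}` (may be empty),
  `IsCompact.exists_forall_le'` or `exists_isMinOn`, `NMI.pos`.
* `NMI.upper`: uniform continuity of `p ↦ mink (n p.1) (n p.2)` on the compact `Z × Z`, compare `(ξ, ζ)`
  with `(ξ, ξ)`.
* `ActI.contract`: `L g (n ξ) = t • n (g•ξ)` gives `t * mink (L g x) (n (g•ξ)) = mink x (n ξ)`; by
  `mink_bounds` twice `1 ≤ 4 R^2 t`; and `t t' mink (n (g•ξ)) (n (g•ζ)) = mink (n ξ) (n ζ)`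
  (for `ξ = ζ` both sides vanish).
* `ActI.finite`: `c` from `GP.proper`, `m` from `lower c`, `δ` from `upper (m / (16 R^4))` (note
  `R > 0` if the set is nonempty); the set is contained in the finite set of `GP.proper`. -/

namespace Vale.Agent.P198
open Set Metric Filter Topology MeasureTheory
variable {G Z : Type} [Group G] [MetricSpace Z] [CompactSpace Z] [MulAction G Z]
  [ContinuousConstSMul G Z]

theorem cont_IProp {n : Z → Fin 4 → ℝ} (h : NMI G n) :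
    Continuous fun p : Z × Z => mink (n p.1) (n p.2) :=
  mink_continuous.comp ((h.cont.comp continuous_fst).prodMk (h.cont.comp continuous_snd))

theorem NMI.lower {n : Z → Fin 4 → ℝ} (h : NMI G n) {c : ℝ} (hc : 0 < c) :
    ∃ m > (0 : ℝ), ∀ ξ ζ, c ≤ dist ξ ζ → m ≤ mink (n ξ) (n ζ) := by
  have hK : IsCompact {p : Z × Z | c ≤ dist p.1 p.2} :=
    (isClosed_le continuous_const continuous_dist).isCompact
  obtain ⟨m, hm, hle⟩ := hK.exists_forall_le' (cont_IProp h).continuousOn (a := 0) (fun p hp =>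
    h.pos fun e => by
      have h1 : c ≤ dist p.1 p.2 := hp
      rw [e, dist_self] at h1
      linarith)
  exact ⟨m, hm, fun ξ ζ hd => hle (ξ, ζ) hd⟩

theorem NMI.upper {n : Z → Fin 4 → ℝ} (h : NMI G n) {ε : ℝ} (hε : 0 < ε) :
    ∃ δ > (0 : ℝ), ∀ ξ ζ, dist ξ ζ ≤ δ → mink (n ξ) (n ζ) < ε := by
  have hK : IsCompact {p : Z × Z | ε ≤ mink (n p.1) (n p.2)} :=
    (isClosed_le continuous_const (cont_IProp h)).isCompact
  obtain ⟨m, hm, hle⟩ := hK.exists_forall_le' (f := fun p : Z × Z => dist p.1 p.2)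
    continuous_dist.continuousOn (a := 0) (fun p hp => dist_pos.2 fun e => by
      have h1 : ε ≤ mink (n p.1) (n p.2) := hp
      rw [e, h.null] at h1
      linarith)
  refine ⟨m / 2, half_pos hm, fun ξ ζ hd => ?_⟩
  by_contra hcon
  have := hle (ξ, ζ) (not_lt.1 hcon)
  simp only at this
  linarith

theorem ActI.contract {n : Z → Fin 4 → ℝ} (h : NMI G n)
    {L : G → (Fin 4 → ℝ) →ₗ[ℝ] (Fin 4 → ℝ)} (hL : ActI n L) {g : G} {R : ℝ} {x : Fin 4 → ℝ}
    (hx : mink x x = 1) (hx0 : 0 < x 0) (hR : x 0 ≤ R) (hgR : L g x 0 ≤ R) (ξ ζ : Z) :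
    mink (n (g • ξ)) (n (g • ζ)) ≤ 16 * R ^ 4 * mink (n ξ) (n ζ) := by
  have hR0 : 0 < R := hx0.trans_le hR
  have key : ∀ ξ t, 0 < t → L g (n ξ) = t • n (g • ξ) → 1 ≤ 4 * R ^ 2 * t := by
    intro ξ t ht e
    have h1 := (mink_bounds hx hx0 hR (h.null ξ) (h.one ξ)).1
    have h2 := (mink_bounds (x := L g x) (by rw [hL.iso, hx]) (hL.pos g x hx hx0) hgR
      (h.null (g • ξ)) (h.one (g • ξ))).2.2
    have h3 : mink x (n ξ) = t * mink (L g x) (n (g • ξ)) := by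
      rw [← hL.iso g x (n ξ), e, mink_smul_right]
    rw [h3] at h1
    have h4 : 2 * R * (t * mink (L g x) (n (g • ξ))) ≤ 2 * R * (t * (2 * R)) := by gcongr
    nlinarith
  obtain ⟨t, ht, e⟩ := hL.ray g ξ
  obtain ⟨t', ht', e'⟩ := hL.ray g ζ
  have h1 := key ξ t ht e
  have h2 := key ζ t' ht' e'
  have h3 : mink (n ξ) (n ζ) = t * (t' * mink (n (g • ξ)) (n (g • ζ))) := by
    rw [← hL.iso g (n ξ) (n ζ), e, e', mink_smul_left, mink_smul_right]
  have h4 : 0 ≤ mink (n (g • ξ)) (n (g • ζ)) := by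
    by_cases hh : g • ξ = g • ζ
    · rw [hh, h.null]
    · exact (h.pos hh).le
  have h5 : 1 ≤ (4 * R ^ 2 * t) * (4 * R ^ 2 * t') := one_le_mul_of_one_le_of_one_le h1 h2
  have h6 := mul_le_mul_of_nonneg_right h5 h4
  rw [h3]
  nlinarith

theorem ActI.finite (X : GP G Z) {n : Z → Fin 4 → ℝ} (h : NMI G n)
    {L : G → (Fin 4 → ℝ) →ₗ[ℝ] (Fin 4 → ℝ)} (hL : ActI n L) (R : ℝ) :
    {g : G | ∃ x : Fin 4 → ℝ, mink x x = 1 ∧ 0 < x 0 ∧ x 0 ≤ R ∧ L g x 0 ≤ R}.Finite := by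
  obtain ⟨c, hc, hfin⟩ := X.proper
  obtain ⟨m, hm, hlow⟩ := h.lower hc
  by_cases hR : 0 < R
  · have hp : 0 < 16 * R ^ 4 := by positivity
    obtain ⟨δ, hδ, hup⟩ := h.upper (div_pos hm hp)
    refine (hfin δ hδ).subset ?_
    rintro g ⟨x, hx, hx0, hxR, hgR⟩ ξ ζ hd
    by_contra hcon
    have h1 := hlow _ _ (not_le.1 hcon).le
    have h2 := hL.contract h hx hx0 hxR hgR ξ ζ
    have h3 := hup ξ ζ hd
    rw [lt_div_iff₀ hp] at h3
    linarith
  · refine Set.finite_empty.subset ?_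
    rintro g ⟨x, _, hx0, hxR, _⟩
    exact hR (hx0.trans_le hxR)

end Vale.Agent.P198
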